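import Vale.Agent.P088.H599.J.Defs
import Vale.Agent.P088.H72.X.Defs2
import Vale.Agent.P088.H158.ConnC

/-!
# P088, joint local uniqueness (metric and connection) on a smooth domain, no condition at the
boundary: definitions and rows

`MC`, `ClC`, `cdC`, `flC`, `LaC`, `lav`, `ea`, `OrU`, `RigU` are those of `H599/J/Defs`; `Dom`, `Om`,
`SDom`, `Jm`, `dl` those of `H72/B`; `bls`, `bal`, `sc` as there.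
-/

open MeasureTheory Set Filter Topology
open scoped ContDiff Matrix

noncomputable section

namespace Vale.Agent.P088.LR.K

open Vale.Agent.P088.LR Vale.Agent.P088.LR.B Vale.Agent.P088.LR.CF Vale.Agent.P088.LR.U
  Vale.Agent.P088.LR.H158

variable {n N : ℕ}

/-- The data of the pairs `(s₁, A₁)`, `(s₂, A₂)` agree (orthogonality and energies). -/
def Dat (Ω : Set (V n)) (s₁ : MF n) (A₁ : Cn n N) (s₂ : MF n) (A₂ : Cn n N) : Prop :=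
  OrU Ω s₁ A₁ s₂ A₂ ∧ ∀ u : V n → Fin N → ℂ, ContDiff ℝ ∞ u → (∀ x ∈ Ω, lav s₁ A₁ u x = 0) →
    ∃ v : V n → Fin N → ℂ, ContDiff ℝ ∞ v ∧ (∀ x ∈ frontier Ω, v x = u x) ∧
      (∀ x ∈ Ω, lav s₂ A₂ v x = 0) ∧ ea Ω s₂ A₂ v v = ea Ω s₁ A₁ u u

/-- The gauge transform `U* A U + U* dU`. -/
def gA (U : MC n N) (A : Cn n N) : Cn n N :=
  fun i x => (U x)ᴴ * A i x * U x + (U x)ᴴ * pdm i U x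

/-- `ν`, `τ` are orthogonal unit vectors. -/
def OT (ν τ : V n) : Prop := ∑ i, ν i ^ 2 = 1 ∧ ∑ i, τ i ^ 2 = 1 ∧ ∑ i, ν i * τ i = 0

/-- `ζ = ν + i τ`. -/
def ze (ν τ : V n) (i : Fin n) : ℂ := (ν i : ℂ) + Complex.I * τ i

/-- Smallness of the two pairs. -/
def Sma (k : ℕ) (ε : ℝ) (s₁ s : MF n) (A₁ A : Cn n N) : Prop :=
  (∀ i j, Cl k ε (fun x => s₁ x i j - dl i j)) ∧ (∀ i j, Cl k ε (fun x => s x i j - dl i j)) ∧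
    (∀ i, ClC k ε (A₁ i)) ∧ ∀ i, ClC k ε (A i)

/-! ## Rows (literal statements) -/

/-- (K_DAT) equal Dirichlet-to-Neumann forms give `Dat`. -/
def RowDAT : Prop := ∀ {n N : ℕ} (Ω : Set (V n)), IsOpen Ω → Bornology.IsBounded Ω →
  ∀ g₁ g₂ : MF n, SmM g₁ → SmM g₂ → (∀ x, (g₁ x).PosDef) → (∀ x, (g₂ x).PosDef) →
  ∀ A₁ A₂ : Cn n N, SmU A₁ → SmU A₂ → SDU Ω g₁ A₁ g₂ A₂ → Dat Ω (sg g₁) A₁ (sg g₂) A₂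

/-- (K_GS) smallness of the gauge transform. -/
def RowGS : Prop := ∀ (n N k : ℕ) (ε : ℝ), 0 < ε → ∃ δ > 0, ∀ (U : MC n N) (A : Cn n N),
  SmC U → SmU A → (∀ x, (U x)ᴴ * U x = 1) → ClC (k + 1) δ (fun x => U x - 1) →
  (∀ i, ClC k δ (A i)) → ∀ i, ClC k ε (gA U A i)

/-- (K_TG) the formal temporal gauge. -/
def RowTG : Prop := ∀ {n : ℕ} (N : ℕ) (ρ : V n → ℝ), Dom ρ → ∀ (k : ℕ) (ε : ℝ), 0 < ε →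
  ∃ (K : ℕ) (δ : ℝ), 0 < δ ∧ ∀ A₁ B : Cn n N, SmU A₁ → SmU B → (∀ i, ClC K δ (A₁ i)) →
  (∀ i, ClC K δ (B i)) → ∃ U : MC n N, SmC U ∧ (∀ x, (U x)ᴴ * U x = 1) ∧
    (∀ x, ρ x = 0 → U x = 1) ∧ ClC k ε (fun x => U x - 1) ∧
    ∀ m : ℕ, ∃ r > 0, ∃ E : MC n N, SmC E ∧ ∀ x, |ρ x| < r →
      ∑ i, ((pd i ρ x : ℝ) : ℂ) • (gA U B i x - A₁ i x) = ((ρ x ^ m : ℝ) : ℂ) • E x

/-- (K_GA) gauge transport, `U = 1` on the boundary. -/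
def RowGA : Prop := ∀ {n N : ℕ} (s : MF n) (A : Cn n N) (U : MC n N), SmM s →
  (∀ x, (s x).IsSymm) → SmU A → SmC U → (∀ x, (U x)ᴴ * U x = 1) → SmU (gA U A) ∧
  ∀ Ω : Set (V n), IsOpen Ω → Bornology.IsBounded Ω → (∀ x ∈ frontier Ω, U x = 1) →
    ∀ (s₁ : MF n) (A₁ : Cn n N), SmM s₁ → (∀ x, (s₁ x).IsSymm) → SmU A₁ →
    Dat Ω s₁ A₁ s A → Dat Ω s₁ A₁ s (gA U A)

/-- (K_MP) transport by `x ↦ x + w x`, `w = 0` on the boundary. -/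
def RowMP : Prop := ∀ {n N : ℕ} (ρ : V n → ℝ), Dom ρ → ∀ (w K : V n → V n), Dif univ w K →
  (∀ x, ρ x = 0 → w x = 0) → (∀ x, 0 < ρ (x + w x) ↔ 0 < ρ x) → ∀ (s : MF n) (A : Cn n N),
  SmM s → (∀ x, (s x).IsSymm) → SmU A → SmU (pfo A K) ∧
  ∀ (s₁ : MF n) (A₁ : Cn n N), SmM s₁ → (∀ x, (s₁ x).IsSymm) → SmU A₁ →
    Dat (Om ρ) s₁ A₁ s A → Dat (Om ρ) s₁ A₁ (psh s w K) (pfo A K)

/-- (K_HDY) Hardy inequality. -/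
def RowHDY : Prop := ∀ {n : ℕ} (ρ : V n → ℝ), 3 ≤ n → Dom ρ → ∃ C : ℝ, 0 < C ∧
  ∀ ψ : V n → ℂ, ContDiff ℝ ∞ ψ → (∫ x in Om ρ, ‖ψ x‖ ^ 2) ≤
    C * ∫ x in Om ρ, ∑ i, ‖pd i (fun y => ((ρ y : ℝ) : ℂ) * ψ y) x‖ ^ 2

/-- (K_EN) the energy estimate; from HDY (and HAD, WK). -/
def RowEN : Prop := ∀ {n : ℕ} (N : ℕ) (ρ : V n → ℝ), 3 ≤ n → Dom ρ → ∃ a₀ C : ℝ, 0 < a₀ ∧ 0 < C ∧
  ∀ (σ : V n → ℝ) (t : MF n) (A₁ A : Cn n N), ContDiff ℝ ∞ σ → SmM t →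
  (∀ x, (t x).IsSymm) → SmU A₁ → SmU A → (∀ x ∈ Om ρ, |σ x - 1| ≤ a₀) →
  (∀ x ∈ Om ρ, ∀ i j, |t x i j - dl i j| ≤ a₀) → (∀ x ∈ Om ρ, ∀ i α β, ‖A₁ i x α β‖ ≤ a₀) →
  (∀ x ∈ Om ρ, ∀ i α β, ‖A i x α β‖ ≤ a₀) → Dat (Om ρ) (sc σ) A₁ t A →
  ∀ u : V n → Fin N → ℂ, ContDiff ℝ ∞ u → (∀ x ∈ Om ρ, lav (sc σ) A₁ u x = 0) →
  ‖ea (Om ρ) t A u u - ea (Om ρ) (sc σ) A₁ u u‖ ≤ C * ∫ x in Om ρ,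
    ((∑ i, ∑ j, |t x i j - sc σ x i j| ^ 2) * ∑ j, ∑ l, ‖cd A₁ j u x l‖ ^ 2 +
      (∑ i, ∑ α, ∑ β, ‖A i x α β - A₁ i x α β‖ ^ 2) *
        ((∑ l, ‖u x l‖ ^ 2) + ρ x ^ 2 * ∑ j, ∑ l, ‖cd A₁ j u x l‖ ^ 2))

/-- (K_CG) solutions `e^{M ζ·x} (1 + r)` of `Δ w + Λ·∇ w + Q w = 0` in any direction, `Λ`, `Q` small
matrices. -/
def RowCG : Prop := ∀ (n N : ℕ) (R : ℝ), ∃ (k : ℕ) (ε : ℝ), 0 < ε ∧ ∀ (ν τ : V n), OT ν τ →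
  ∀ (Λ : Fin n → MC n N) (Q : MC n N), (∀ i, SmC (Λ i)) → SmC Q → (∀ i, ClC k ε (Λ i)) →
  ClC k ε Q → ∃ r : ℕ → MC n N, (∀ M, SmC (r M)) ∧ ∀ᶠ M : ℕ in atTop,
    (∀ x, ‖x‖ ≤ R → ∑ j, pdm j (pdm j (r M)) x + (2 * (M : ℂ)) • ∑ j, ze ν τ j • pdm j (r M) x +
      ∑ j, Λ j x * (pdm j (r M) x + ((M : ℂ) * ze ν τ j) • (1 + r M x)) +
      Q x * (1 + r M x) = 0) ∧
    ∀ x, ‖x‖ ≤ R → ∀ α β, ‖r M x α β‖ ≤ 1 / (4 * (N + 1)) ∧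
      (∀ i, ‖pdm i (r M) x α β‖ ≤ 1) ∧ ∀ i j, ‖pdm i (pdm j (r M)) x α β‖ ≤ 1

/-- (K_CON) solutions of `L_(σ, A₁) u = 0` concentrating at a boundary point; from CG. -/
def RowCON : Prop := ∀ {n : ℕ} (N : ℕ) (ρ : V n → ℝ), 3 ≤ n → Dom ρ → ∃ (k : ℕ) (ε : ℝ), 0 < ε ∧
  ∀ (σ : V n → ℝ) (A₁ : Cn n N), SmP σ → Cl k ε (fun x => σ x - 1) → SmU A₁ →
  (∀ i, ClC k ε (A₁ i)) → ∀ p, ρ p = 0 → ∀ ν τ : V n, OT ν τ →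
  (∃ c > 0, ∀ i, pd i ρ p = c * ν i) → ∀ η : Fin N → ℂ,
  ∃ u : ℕ → V n → Fin N → ℂ, (∀ M, ContDiff ℝ ∞ (u M)) ∧
    (∀ M, ∀ x ∈ Om ρ, lav (sc σ) A₁ (u M) x = 0) ∧
    ∀ j : ℕ, ∃ Z : ℕ → ℝ, (∀ M, 0 < Z M) ∧ ∀ F : V n → ℂ, ContinuousOn F (closure (Om ρ)) →
      ∀ l l' : Fin N,
      (∀ a b, Tendsto (fun M => ((Z M : ℝ) : ℂ)⁻¹ * ∫ x in Om ρ, ((ρ x ^ j : ℝ) : ℂ) * F x *
        (pd a (u M) x l * star (pd b (u M) x l'))) atTop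
        (𝓝 (F p * (ze ν τ a * star (ze ν τ b)) * (η l * star (η l'))))) ∧
      (∀ a b, Tendsto (fun M => ((Z M : ℝ) : ℂ)⁻¹ * ∫ x in Om ρ, ((ρ x ^ j : ℝ) : ℂ) * F x *
        (pd a (fun y => pd b (u M) y) x l * star (u M x l'))) atTop
        (𝓝 (F p * (ze ν τ a * ze ν τ b) * (η l * star (η l'))))) ∧
      (∀ a, Tendsto (fun M => ((Z M : ℝ) : ℂ)⁻¹ * ∫ x in Om ρ, ((ρ x ^ j : ℝ) : ℂ) * F x *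
        (pd a (u M) x l * star (u M x l'))) atTop (𝓝 0)) ∧
      Tendsto (fun M => ((Z M : ℝ) : ℂ)⁻¹ * ∫ x in Om ρ, ((ρ x ^ j : ℝ) : ℂ) * F x *
        (u M x l * star (u M x l'))) atTop (𝓝 0)

/-- (K_BD) the boundary step; from CON, EN. -/
def RowBD : Prop := ∀ {n : ℕ} (N : ℕ) (ρ : V n → ℝ), 3 ≤ n → 1 ≤ N → Dom ρ →
  ∃ (k : ℕ) (ε : ℝ), 0 < ε ∧
  ∀ (σ : V n → ℝ) (t : MF n) (A₁ A : Cn n N), SmP σ → SmM t → (∀ x, (t x).IsSymm) → SmU A₁ →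
  SmU A → Sma k ε (sc σ) t A₁ A → Dat (Om ρ) (sc σ) A₁ t A →
  ∀ (m : ℕ) (b : Fin n → Fin n → V n → ℝ) (a : Fin n → MC n N), (∀ i j, ContDiff ℝ ∞ (b i j)) →
  (∀ i, SmC (a i)) → (∀ i j x, b i j x = b j i x) →
  (∀ i j x, t x i j - sc σ x i j = ρ x ^ m * b i j x) →
  (∀ i x, ((ρ x : ℝ) : ℂ) • (A i x - A₁ i x) = ((ρ x ^ m : ℝ) : ℂ) • a i x) →
  (∀ x, ρ x = 0 → ∀ i, ∑ j, b i j x * pd j ρ x = 0) →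
  (∀ x, ρ x = 0 → ∑ i, ((pd i ρ x : ℝ) : ℂ) • a i x = 0) →
  ∀ x, ρ x = 0 → (∀ i j, b i j x = 0) ∧ ∀ i, a i x = 0

/-- (K_INF) contact of infinite order; from HAD, BD. -/
def RowINF : Prop := ∀ {n : ℕ} (N : ℕ) (ρ : V n → ℝ), 3 ≤ n → 1 ≤ N → Dom ρ →
  ∃ (k : ℕ) (ε : ℝ), 0 < ε ∧ ∀ (σ : V n → ℝ) (t : MF n) (A₁ A : Cn n N), SmP σ → SmM t →
  (∀ x, (t x).IsSymm) → SmU A₁ → SmU A → Sma k ε (sc σ) t A₁ A → Dat (Om ρ) (sc σ) A₁ t A →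
  ∀ w₁ : V n → V n, ContDiff ℝ ∞ w₁ → (∀ x, ρ x = 0 → (jm w₁ x).det ≠ 0) →
  (∀ a x, ρ x = 0 → gr t (fun y => y a + w₁ y a) ρ x = gr (sc σ) (fun y => y a + w₁ y a) ρ x) →
  (∀ a (m : ℕ), ∃ r > 0, ∃ E : V n → ℝ, ContDiff ℝ ∞ E ∧ ∀ x, |ρ x| < r →
    dr t (fun y => y a + w₁ y a) x = ρ x ^ m * E x) →
  (∀ a (m : ℕ), ∃ r > 0, ∃ E : V n → ℝ, ContDiff ℝ ∞ E ∧ ∀ x, |ρ x| < r →
    dr (sc σ) (fun y => y a + w₁ y a) x = ρ x ^ m * E x) →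
  (∀ m : ℕ, ∃ r > 0, ∃ E : MC n N, SmC E ∧ ∀ x, |ρ x| < r →
    ∑ i, ((pd i ρ x : ℝ) : ℂ) • (A i x - A₁ i x) = ((ρ x ^ m : ℝ) : ℂ) • E x) →
  ∀ m : ℕ,
  (∃ b : Fin n → Fin n → V n → ℝ, (∀ i j, ContDiff ℝ ∞ (b i j)) ∧
    ∀ x i j, t x i j - sc σ x i j = ρ x ^ m * b i j x) ∧
  ∃ a : Fin n → MC n N, (∀ i, SmC (a i)) ∧
    ∀ i x, A i x - A₁ i x = ((ρ x ^ m : ℝ) : ℂ) • a i x

/-- (K_EXT) extension by zero of a matrix function which is flat at the boundary. -/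
def RowEXC : Prop := ∀ {n N : ℕ} (ρ : V n → ℝ), Dom ρ → ∀ h : MC n N, SmC h →
  (∀ m : ℕ, ∃ g : MC n N, SmC g ∧ ∀ x, h x = ((ρ x ^ m : ℝ) : ℂ) • g x) →
  SmC (fun x => if 0 < ρ x then h x else 0) ∧
    ∀ k ε, ClC k ε h → ClC k ε (fun x => if 0 < ρ x then h x else 0)

/-- (K_FIN) the theorem in the ball, tensor form; from all rows above and `RigU`. -/
def RowFIN : Prop := ∀ (n N : ℕ), 3 ≤ n → 1 ≤ N → ∀ ρ : V n → ℝ, Dom ρ →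
  (∀ x ∉ bls n, ρ x = -1) → ∃ (k : ℕ) (ε : ℝ), 0 < ε ∧ ∀ σ : V n → ℝ, SmP σ →
  (∀ x ∉ bal n, σ x = 1) → ∀ s : MF n, SmM s → (∀ x, (s x).PosDef) → ∀ A₁ A₂ : Cn n N, SmU A₁ →
  SmU A₂ → (∀ i, ∀ x ∉ bal n, A₁ i x = 0) → Sma k ε (sc σ) s A₁ A₂ →
  Dat (Om ρ) (sc σ) A₁ s A₂ → ∃ (Φ Ψ : V n → V n) (U : MC n N), ContDiff ℝ ∞ Φ ∧
    ContDiff ℝ ∞ Ψ ∧ (∀ x, Ψ (Φ x) = x) ∧ (∀ y, Φ (Ψ y) = y) ∧ (∀ x, ρ x = 0 → Φ x = x) ∧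
    (∀ x, 0 < ρ (Φ x) ↔ 0 < ρ x) ∧ (∀ x, 0 < (Jm Φ x).det) ∧
    (∀ x, 0 ≤ ρ x → (Jm Φ x).det⁻¹ • (Jm Φ x * s x * (Jm Φ x)ᵀ) = sc σ (Φ x)) ∧ SmC U ∧
    (∀ x, (U x)ᴴ * U x = 1) ∧ (∀ x, ρ x = 0 → U x = 1) ∧
    ∀ i x, 0 < ρ x → A₂ i x = (U x)ᴴ * pbF Φ A₁ i x * U x + (U x)ᴴ * pdm i U x

/-- **Joint local uniqueness on every smooth bounded domain, no condition at the boundary.** -/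
def FinJ : Prop := ∀ n N : ℕ, 3 ≤ n → 1 ≤ N → ∀ ρ : V n → ℝ, SDom ρ →
  ∃ (k : ℕ) (ε : ℝ), 0 < ε ∧ ∀ (c : V n → ℝ) (g : MF n), ContDiff ℝ ∞ c → (∀ x, 0 < c x) →
  SmM g → (∀ x, (g x).PosDef) → Cl k ε (fun x => c x - 1) →
  (∀ i j, Cl k ε (fun x => g x i j - dl i j)) → ∀ A₁ A₂ : Cn n N, SmU A₁ → SmU A₂ →
  (∀ i, ClC k ε (A₁ i)) → (∀ i, ClC k ε (A₂ i)) → SDU (Om ρ) (sc c) A₁ g A₂ →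
  ∃ (Φ Ψ : V n → V n) (U : MC n N), ContDiff ℝ ∞ Φ ∧ ContDiff ℝ ∞ Ψ ∧
    (∀ x, Ψ (Φ x) = x) ∧ (∀ y, Φ (Ψ y) = y) ∧ (∀ x, ρ x = 0 → Φ x = x) ∧
    (∀ x, 0 < ρ (Φ x) ↔ 0 < ρ x) ∧ (∀ x, 0 < (Jm Φ x).det) ∧
    (∀ x, 0 ≤ ρ x → g x = c (Φ x) • ((Jm Φ x)ᵀ * Jm Φ x)) ∧ Gau (Om ρ) U (pbF Φ A₁) A₂

/-- (K_TOP) scaling, cut-off, `g` from `√(det g) g⁻¹`; uses DAT. -/
def RowTOP : Prop := RowDAT → RowFIN → FinJ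

end Vale.Agent.P088.LR.K
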